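import Mathlib

namespace Vale.Agent.P208

open Finset

variable {E : Type} [NormedAddCommGroup E] [InnerProductSpace ℝ E]

lemma sum_range_blocks {M : Type} [AddCommMonoid M] (f : ℕ → M) (K P : ℕ) :
    ∑ a ∈ range (K * P), f a = ∑ B ∈ range K, ∑ x ∈ range P, f (B * P + x) := by
  induction K with
  | zero => simp
  | succ K ih => rw [Nat.succ_mul, sum_range_add, ih, sum_range_succ]

lemma transport (u : ℕ → E) (s P : ℕ) {x y : ℕ} (hx : x < P) (hy : y < P) :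
    ‖u (s + x) - u (s + y)‖ ≤ ∑ z ∈ range P, ‖u (s + z + 1) - u (s + z)‖ := by
  have key : ∀ x y : ℕ, y ≤ x → x < P →
      ‖u (s + x) - u (s + y)‖ ≤ ∑ z ∈ range P, ‖u (s + z + 1) - u (s + z)‖ := by
    intro x y hxy hx
    have e : u (s + x) - u (s + y) = ∑ z ∈ Ico y x, (u (s + z + 1) - u (s + z)) :=
      (sum_Ico_sub (fun z => u (s + z)) hxy).symm
    rw [e]
    refine (norm_sum_le _ _).trans (sum_le_sum_of_subset_of_nonneg ?_ fun _ _ _ => norm_nonneg _)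
    intro z hz
    simp only [mem_Ico, mem_range] at hz ⊢
    omega
  rcases le_total y x with h | h
  · exact key x y h hx
  · rw [norm_sub_rev]; exact key y x h hy

def cv (N M α : ℕ) : ℕ := α / M % N + 1

lemma cv_block {N M B i ξ : ℕ} (hi : i < N) (hξ : ξ < M) : cv N M ((B * N + i) * M + ξ) = i + 1 := by
  have hM : 0 < M := by omega
  unfold cv
  rw [Nat.add_comm _ ξ, Nat.add_mul_div_right _ _ hM, Nat.div_eq_of_lt hξ, zero_add,
    Nat.add_comm _ i, Nat.add_mul_mod_self_right, Nat.mod_eq_of_lt hi]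

lemma sum_three (f : ℕ → ℝ) (K N M : ℕ) :
    ∑ a ∈ range (K * (N * M)), f a =
      ∑ B ∈ range K, ∑ ξ ∈ range M, ∑ i ∈ range N, f ((B * N + i) * M + ξ) := by
  rw [sum_range_blocks]
  apply sum_congr rfl
  intro B _
  rw [sum_range_blocks, sum_comm]
  apply sum_congr rfl; intro ξ _
  apply sum_congr rfl; intro i _
  congr 1; ring

theorem crossing (I J G : ℕ → ℕ → ℕ → E) {L s : ℝ} {N K₁ K₂ M₁ M₂ : ℕ}
    (hI : ∀ c α ρ, ‖I c α ρ - G c α ρ‖ ≤ L) (hJ : ∀ c α ρ, ‖J c α ρ - G c α ρ‖ ≤ L)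
    (hsep : ∀ α < K₁ * (N * M₁), ∀ ρ < K₂ * (N * M₂), cv N M₁ α ≠ cv N M₂ ρ →
      s ≤ ‖G (cv N M₁ α) α ρ - G (cv N M₂ ρ) α ρ‖)
    (hpack : ∀ α ρ : ℕ → ℕ, ∃ i < N, ∃ j < N, i ≠ j ∧
      ‖(G (i + 1) (α i) (ρ i) - G 0 (α i) (ρ i)) - (G (j + 1) (α j) (ρ j) - G 0 (α j) (ρ j))‖
        ≤ s / 4)
    (hL : 32 * L ≤ s) :
    (K₁ * M₁ : ℝ) * (K₂ * M₂) * (s / 2) ≤
      M₂ * ∑ α ∈ range (K₁ * (N * M₁)), ∑ ρ ∈ range (K₂ * (N * M₂)),
        ‖(J (cv N M₁ α) α (ρ + 1) - J (cv N M₁ α) α ρ) - (J 0 α (ρ + 1) - J 0 α ρ)‖ +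
      M₁ * ∑ α ∈ range (K₁ * (N * M₁)), ∑ ρ ∈ range (K₂ * (N * M₂)),
        ‖(I (cv N M₂ ρ) (α + 1) ρ - I (cv N M₂ ρ) α ρ) - (I 0 (α + 1) ρ - I 0 α ρ)‖ := by
  set fb : ℕ → ℕ → ℝ := fun α ρ =>
    ‖(J (cv N M₁ α) α (ρ + 1) - J (cv N M₁ α) α ρ) - (J 0 α (ρ + 1) - J 0 α ρ)‖ with hfb
  set fa : ℕ → ℕ → ℝ := fun α ρ =>
    ‖(I (cv N M₂ ρ) (α + 1) ρ - I (cv N M₂ ρ) α ρ) - (I 0 (α + 1) ρ - I 0 α ρ)‖ with hfa
  have key : ∀ B₁ < K₁, ∀ ξ < M₁, ∀ B₂ < K₂, ∀ ζ < M₂, s / 2 ≤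
      ∑ i ∈ range N, ∑ z ∈ range (N * M₂), fb ((B₁ * N + i) * M₁ + ξ) (B₂ * (N * M₂) + z) +
      ∑ j ∈ range N, ∑ z ∈ range (N * M₁), fa (B₁ * (N * M₁) + z) ((B₂ * N + j) * M₂ + ζ) := by
    intro B₁ hB₁ ξ hξ B₂ hB₂ ζ hζ
    obtain ⟨i, hi, j, hj, hij, h⟩ := hpack (fun i => (B₁ * N + i) * M₁ + ξ)
      (fun i => (B₂ * N + i) * M₂ + ζ)
    have lt1 : ∀ i < N, i * M₁ + ξ < N * M₁ := fun i hi => by nlinarith
    have lt2 : ∀ i < N, i * M₂ + ζ < N * M₂ := fun i hi => by nlinarith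
    have eq1 : ∀ i, (B₁ * N + i) * M₁ + ξ = B₁ * (N * M₁) + (i * M₁ + ξ) := fun i => by ring
    have eq2 : ∀ i, (B₂ * N + i) * M₂ + ζ = B₂ * (N * M₂) + (i * M₂ + ζ) := fun i => by ring
    set αi := (B₁ * N + i) * M₁ + ξ with hαi
    set αj := (B₁ * N + j) * M₁ + ξ with hαj
    set ρi := (B₂ * N + i) * M₂ + ζ with hρi
    set ρj := (B₂ * N + j) * M₂ + ζ with hρj
    have c1 : cv N M₁ αi = i + 1 := cv_block hi hξ
    have c2 : cv N M₂ ρj = j + 1 := cv_block hj hζ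
    have hs := hsep αi (by have := lt1 i hi; rw [hαi, eq1]; nlinarith) ρj
      (by have := lt2 j hj; rw [hρj, eq2]; nlinarith) (by rw [c1, c2]; omega)
    rw [c1, c2] at hs
    have tv := transport (fun ρ => J (i + 1) αi ρ - J 0 αi ρ) (B₂ * (N * M₂)) (N * M₂)
      (lt2 j hj) (lt2 i hi)
    have th := transport (fun α => I (j + 1) α ρj - I 0 α ρj) (B₁ * (N * M₁)) (N * M₁)
      (lt1 j hj) (lt1 i hi)
    simp only [← eq1, ← eq2, ← hαi, ← hαj, ← hρi, ← hρj] at tv th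
    have tv' : ‖J (i + 1) αi ρj - J 0 αi ρj - (J (i + 1) αi ρi - J 0 αi ρi)‖ ≤
        ∑ i ∈ range N, ∑ z ∈ range (N * M₂), fb ((B₁ * N + i) * M₁ + ξ) (B₂ * (N * M₂) + z) := by
      refine tv.trans (le_trans (le_of_eq ?_) (single_le_sum (f := fun i => ∑ z ∈ range (N * M₂),
        fb ((B₁ * N + i) * M₁ + ξ) (B₂ * (N * M₂) + z))
        (fun _ _ => sum_nonneg fun _ _ => norm_nonneg _) (mem_range.2 hi)))
      apply sum_congr rfl
      intro z _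
      simp only [hfb, ← hαi, c1]
      congr 1; abel
    have th' : ‖I (j + 1) αj ρj - I 0 αj ρj - (I (j + 1) αi ρj - I 0 αi ρj)‖ ≤
        ∑ j ∈ range N, ∑ z ∈ range (N * M₁), fa (B₁ * (N * M₁) + z) ((B₂ * N + j) * M₂ + ζ) := by
      refine th.trans (le_trans (le_of_eq ?_) (single_le_sum (f := fun j => ∑ z ∈ range (N * M₁),
        fa (B₁ * (N * M₁) + z) ((B₂ * N + j) * M₂ + ζ))
        (fun _ _ => sum_nonneg fun _ _ => norm_nonneg _) (mem_range.2 hj)))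
      apply sum_congr rfl
      intro z _
      simp only [hfa, ← hρj, c2]
      congr 1; abel
    have e : G (i + 1) αi ρj - G (j + 1) αi ρj =
        ((G (i + 1) αi ρi - G 0 αi ρi) - (G (j + 1) αj ρj - G 0 αj ρj))
        + (J (i + 1) αi ρj - J 0 αi ρj - (J (i + 1) αi ρi - J 0 αi ρi))
        + (I (j + 1) αj ρj - I 0 αj ρj - (I (j + 1) αi ρj - I 0 αi ρj))
        + (((J (i + 1) αi ρi - G (i + 1) αi ρi) - (J (i + 1) αi ρj - G (i + 1) αi ρj))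
          + ((J 0 αi ρj - G 0 αi ρj) - (J 0 αi ρi - G 0 αi ρi))
          + ((I (j + 1) αi ρj - G (j + 1) αi ρj) - (I (j + 1) αj ρj - G (j + 1) αj ρj))
          + ((I 0 αj ρj - G 0 αj ρj) - (I 0 αi ρj - G 0 αi ρj))) := by abel
    have n1 := (norm_sub_le _ _).trans (add_le_add (hJ (i + 1) αi ρi) (hJ (i + 1) αi ρj))
    have n2 := (norm_sub_le _ _).trans (add_le_add (hJ 0 αi ρj) (hJ 0 αi ρi))
    have n3 := (norm_sub_le _ _).trans (add_le_add (hI (j + 1) αi ρj) (hI (j + 1) αj ρj))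
    have n4 := (norm_sub_le _ _).trans (add_le_add (hI 0 αj ρj) (hI 0 αi ρj))
    have n5 := (norm_add_le _ _).trans (add_le_add ((norm_add_le _ _).trans (add_le_add
      ((norm_add_le _ _).trans (add_le_add n1 n2)) n3)) n4)
    have n6 := (norm_add_le _ _).trans (add_le_add ((norm_add_le _ _).trans (add_le_add
      ((norm_add_le _ _).trans (add_le_add h tv')) th')) n5)
    rw [← e] at n6
    linarith
  calc _ = ∑ B₁ ∈ range K₁, ∑ ξ ∈ range M₁, ∑ B₂ ∈ range K₂, ∑ ζ ∈ range M₂, s / 2 := by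
        simp only [sum_const, card_range, nsmul_eq_mul]; ring
    _ ≤ ∑ B₁ ∈ range K₁, ∑ ξ ∈ range M₁, ∑ B₂ ∈ range K₂, ∑ ζ ∈ range M₂,
        (∑ i ∈ range N, ∑ z ∈ range (N * M₂), fb ((B₁ * N + i) * M₁ + ξ) (B₂ * (N * M₂) + z) +
        ∑ j ∈ range N, ∑ z ∈ range (N * M₁), fa (B₁ * (N * M₁) + z) ((B₂ * N + j) * M₂ + ζ)) :=
        sum_le_sum fun B₁ h1 => sum_le_sum fun ξ h2 => sum_le_sum fun B₂ h3 => sum_le_sum
          fun ζ h4 => key B₁ (mem_range.1 h1) ξ (mem_range.1 h2) B₂ (mem_range.1 h3) ζ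
            (mem_range.1 h4)
    _ = _ := by
        simp only [sum_add_distrib]
        congr 1
        · rw [sum_three, mul_sum]
          apply sum_congr rfl; intro B₁ _
          rw [mul_sum]
          apply sum_congr rfl; intro ξ _
          simp only [sum_const, card_range, nsmul_eq_mul, ← mul_sum]
          congr 1
          rw [sum_comm]
          apply sum_congr rfl; intro i _
          rw [sum_range_blocks _ K₂]
        · rw [sum_range_blocks _ K₁, mul_sum]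
          apply sum_congr rfl; intro B₁ _
          simp only [sum_const, card_range, nsmul_eq_mul]
          congr 1
          symm
          rw [sum_comm, sum_three]

lemma variance {ι : Type} (T : Finset ι) (u : ι → E) (u₀ : E) {L ε : ℝ} (h0 : ‖u₀‖ ≤ L)
    (h : ‖∑ s ∈ T, u s - (T.card : ℝ) • u₀‖ ≤ ε) :
    ∑ s ∈ T, ‖u s - u₀‖ ^ 2 ≤ ∑ s ∈ T, ‖u s‖ ^ 2 - T.card * ‖u₀‖ ^ 2 + 2 * L * ε := by
  simp only [norm_sub_sq_real, sum_add_distrib, sum_sub_distrib, ← mul_sum, ← sum_inner,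
    sum_const, nsmul_eq_mul]
  have h1 := abs_real_inner_le_norm (∑ s ∈ T, u s - (T.card : ℝ) • u₀) u₀
  rw [inner_sub_left, real_inner_smul_left, real_inner_self_eq_norm_sq] at h1
  have h2 := (abs_le.1 h1).1
  have h3 : ‖∑ s ∈ T, u s - (T.card : ℝ) • u₀‖ * ‖u₀‖ ≤ ε * L :=
    mul_le_mul h h0 (norm_nonneg _) ((norm_nonneg _).trans h)
  linarith

lemma sum_norm_le {ι : Type} (T : Finset ι) (u v : ι → E) (u₀ : E) {θ : ℝ} (hθ : 0 < θ) :
    ∑ s ∈ T, ‖u s - v s‖ ≤ 2 * θ * T.card +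
      (∑ s ∈ T, ‖u s - u₀‖ ^ 2 + ∑ s ∈ T, ‖v s - u₀‖ ^ 2) / θ := by
  have key : ∀ y : E, ‖y‖ ≤ θ + ‖y‖ ^ 2 / θ := by
    intro y
    rw [← sub_le_iff_le_add', le_div_iff₀ hθ]
    nlinarith [norm_nonneg y, sq_nonneg (‖y‖ - θ)]
  calc _ ≤ ∑ s ∈ T, (2 * θ + (‖u s - u₀‖ ^ 2 + ‖v s - u₀‖ ^ 2) / θ) := by
        apply sum_le_sum
        intro s _
        have := norm_sub_le (u s - u₀) (v s - u₀)
        rw [sub_sub_sub_cancel_right] at this
        have := key (u s - u₀)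
        have := key (v s - u₀)
        rw [add_div]
        linarith
    _ = _ := by
        rw [sum_add_distrib, ← sum_div, sum_add_distrib, sum_const, nsmul_eq_mul]; ring

lemma tele_norm (u : ℕ → E) {R : ℝ} (h : ∀ x, ‖u x‖ ≤ R) (s P : ℕ) :
    ‖∑ x ∈ range P, (u (s + x + 1) - u (s + x))‖ ≤ 2 * R := by
  rw [show (∑ x ∈ range P, (u (s + x + 1) - u (s + x))) = u (s + P) - u (s + 0) from
    sum_range_sub (fun x => u (s + x)) P]
  linarith [norm_sub_le (u (s + P)) (u (s + 0)), h (s + P), h (s + 0)]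

end Vale.Agent.P208
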