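import Mathlib

namespace Vale.Agent.P208

/-- `X` is doubling: for some finite `lam`, every closed ball of `X` (hence every open ball) is
covered by at most `lam` open balls of half the radius with centres in `X`. -/
def Doubling {α : Type} [PseudoMetricSpace α] (X : Set α) : Prop :=
  ∃ lam : ℕ, ∀ x ∈ X, ∀ r : ℝ, 0 < r → ∃ T : Finset α, (T : Set α) ⊆ X ∧ T.card ≤ lam ∧
    X ∩ Metric.closedBall x r ⊆ ⋃ t ∈ T, Metric.ball t (r / 2)

/-- `f` is a bi-Lipschitz embedding of `X` into Euclidean `k`-space with distortion at most `D`. -/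
def BiLip {α : Type} [PseudoMetricSpace α] (X : Set α) (k : ℕ) (D : ℝ)
    (f : X → EuclideanSpace ℝ (Fin k)) : Prop :=
  ∃ a : ℝ, 0 < a ∧ ∀ x y : X,
    a * dist x y ≤ dist (f x) (f y) ∧ dist (f x) (f y) ≤ D * a * dist x y

end Vale.Agent.P208
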