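import Vale.Agent.P208.Core

namespace Vale.Agent.P208

open Finset

variable {E : Type} [NormedAddCommGroup E] [InnerProductSpace ℝ E]

lemma cv_const {N M B x : ℕ} (hx : x < M) : cv N M (B * M + x) = B % N + 1 := by
  have hM : 0 < M := by omega
  unfold cv
  rw [Nat.add_comm _ x, Nat.add_mul_div_right _ _ hM, Nat.div_eq_of_lt hx, zero_add]

set_option maxHeartbeats 800000 in
theorem energy (I J G : ℕ → ℕ → ℕ → E) {L : ℝ} {N K W m A : ℕ} (hN : 0 < N) (hK : 0 < K)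
    (hW : 0 < W) (hm : 0 < m) (hA : A = K * (N * (W * m))) (hL0 : 0 ≤ L)
    (hI : ∀ c α ρ, ‖I c α ρ - G c α ρ‖ ≤ L) (hJ : ∀ c α ρ, ‖J c α ρ - G c α ρ‖ ≤ L)
    (hG : ∀ c α ρ, ‖G c α ρ - G 0 α ρ‖ ≤ L * m)
    (hsep : ∀ α < A, ∀ ρ < A, cv N (W * m) α ≠ cv N m ρ →
      m ≤ ‖G (cv N (W * m) α) α ρ - G (cv N m ρ) α ρ‖)
    (hpack : ∀ D : ℕ → E, (∀ i, ‖D i‖ ≤ L * m) → ∃ i < N, ∃ j < N, i ≠ j ∧ ‖D i - D j‖ ≤ m / 4)
    (hL : 32 * L ≤ m) {a₀ b₀ : E} (ha₀ : ‖a₀‖ ≤ L) (hb₀ : ‖b₀‖ ≤ L)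
    (hsa : ∑ α ∈ range A, ∑ ρ ∈ range A, (I 0 (α + 1) ρ - I 0 α ρ) = ((A : ℝ) * A) • a₀)
    (hsb : ∑ α ∈ range A, ∑ ρ ∈ range A, (J 0 α (ρ + 1) - J 0 α ρ) = ((A : ℝ) * A) • b₀)
    {as β t₁ t₂ γ θ : ℝ} (hθ : θ = 1 / (16 * (N : ℝ) ^ 2)) (hγ : γ = θ ^ 2 / 10)
    (ht₁ : 0 < t₁) (ht₂ : 0 < t₂) (h1 : t₁ ≤ γ) (h2 : L ^ 2 / t₂ * t₁ ≤ γ)
    (h3 : L ^ 2 / t₂ * (12 * L ^ 2 / W) ≤ γ) (h4 : t₁ ≤ (θ / W) ^ 2 / 4)
    (h5 : 12 * L ^ 2 * m ≤ A * t₁) (ha : as - t₁ ≤ ‖a₀‖ ^ 2) (hb : β - 2 * γ ≤ ‖b₀‖ ^ 2)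
    (hpa : ∀ α < A, ∀ ρ < A, ∀ c, (c = 0 ∨ c = cv N m ρ) → ‖I c (α + 1) ρ - I c α ρ‖ ^ 2 ≤ as)
    (hpb : ∀ α < A, ∀ ρ < A, ∀ c, (c = 0 ∨ c = cv N (W * m) α) → ‖J c α (ρ + 1) - J c α ρ‖ ^ 2 ≤
      β + L ^ 2 / t₂ * (as - ‖I c (α + 1) ρ - I c α ρ‖ ^ 2)) : False := by
  have hA2 : A = K * W * (N * m) := by rw [hA]; ring
  have hA3 : A = K * N * (W * m) := by rw [hA]; ring
  have hm1 : (1 : ℝ) ≤ m := by exact_mod_cast hm
  have hN1 : (1 : ℝ) ≤ N := by exact_mod_cast hN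
  have hW1 : (1 : ℝ) ≤ W := by exact_mod_cast hW
  have hK1 : (1 : ℝ) ≤ K := by exact_mod_cast hK
  have hAR : (A : ℝ) = K * (N * (W * m)) := by rw [hA]; push_cast; ring
  have hApos : (0 : ℝ) < A := by rw [hAR]; positivity
  have hθ0 : 0 < θ := by rw [hθ]; positivity
  have hγ0 : 0 < γ := by rw [hγ]; positivity
  have hc := crossing I J G (L := L) (s := m) (N := N) (K₁ := K) (K₂ := K * W) (M₁ := W * m)
    (M₂ := m) hI hJ (by rw [← hA, ← hA2]; exact hsep)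
    (fun α ρ => hpack (fun i => G (i + 1) (α i) (ρ i) - G 0 (α i) (ρ i)) fun i => hG _ _ _) hL
  rw [← hA, ← hA2] at hc
  have hI0 : ∀ c α ρ, ‖I c α ρ - I 0 α ρ‖ ≤ 3 * L * m := by
    intro c α ρ
    have e : I c α ρ - I 0 α ρ = (I c α ρ - G c α ρ) + (G c α ρ - G 0 α ρ)
      - (I 0 α ρ - G 0 α ρ) := by abel
    have := (norm_sub_le _ _).trans (add_le_add ((norm_add_le _ _).trans
      (add_le_add (hI c α ρ) (hG c α ρ))) (hI 0 α ρ))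
    rw [e]; nlinarith
  have hJ0 : ∀ c α ρ, ‖J c α ρ - J 0 α ρ‖ ≤ 3 * L * m := by
    intro c α ρ
    have e : J c α ρ - J 0 α ρ = (J c α ρ - G c α ρ) + (G c α ρ - G 0 α ρ)
      - (J 0 α ρ - G 0 α ρ) := by abel
    have := (norm_sub_le _ _).trans (add_le_add ((norm_add_le _ _).trans
      (add_le_add (hJ c α ρ) (hG c α ρ))) (hJ 0 α ρ))
    rw [e]; nlinarith
  set T := range A ×ˢ range A with hT
  have hTc : (T.card : ℝ) = A * A := by simp [hT]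
  have hmem : ∀ p ∈ T, p.1 < A ∧ p.2 < A := fun p hp => by simpa [hT] using hp
  set a0 : ℕ × ℕ → E := fun p => I 0 (p.1 + 1) p.2 - I 0 p.1 p.2 with ha0
  set aH : ℕ × ℕ → E := fun p => I (cv N m p.2) (p.1 + 1) p.2 - I (cv N m p.2) p.1 p.2 with haH
  set aV : ℕ × ℕ → E := fun p => I (cv N (W * m) p.1) (p.1 + 1) p.2 -
    I (cv N (W * m) p.1) p.1 p.2 with haV
  set b0 : ℕ × ℕ → E := fun p => J 0 p.1 (p.2 + 1) - J 0 p.1 p.2 with hb0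
  set bV : ℕ × ℕ → E := fun p => J (cv N (W * m) p.1) p.1 (p.2 + 1) -
    J (cv N (W * m) p.1) p.1 p.2 with hbV
  have s0 : ∑ p ∈ T, a0 p = (T.card : ℝ) • a₀ := by rw [hTc, ← hsa, hT, sum_product]
  have s0' : ∑ p ∈ T, b0 p = (T.card : ℝ) • b₀ := by rw [hTc, ← hsb, hT, sum_product]
  have sH : ‖∑ p ∈ T, aH p - (T.card : ℝ) • a₀‖ ≤ A * (6 * L * m) := by
    rw [← s0, ← sum_sub_distrib, hT, sum_product_right]
    refine (norm_sum_le _ _).trans ((sum_le_card_nsmul _ _ (6 * L * m) ?_).trans (by simp))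
    intro ρ _
    have := tele_norm (fun x => I (cv N m ρ) x ρ - I 0 x ρ) (fun x => hI0 _ x ρ) 0 A
    simp only [zero_add] at this
    refine le_trans (le_of_eq ?_) (this.trans (le_of_eq (by ring)))
    congr 1
    apply sum_congr rfl; intro x _
    simp only [haH, ha0]; abel
  have sV' : ‖∑ p ∈ T, bV p - (T.card : ℝ) • b₀‖ ≤ A * (6 * L * m) := by
    rw [← s0', ← sum_sub_distrib, hT, sum_product]
    refine (norm_sum_le _ _).trans ((sum_le_card_nsmul _ _ (6 * L * m) ?_).trans (by simp))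
    intro α _
    have := tele_norm (fun x => J (cv N (W * m) α) α x - J 0 α x) (fun x => hJ0 _ α x) 0 A
    simp only [zero_add] at this
    refine le_trans (le_of_eq ?_) (this.trans (le_of_eq (by ring)))
    congr 1
    apply sum_congr rfl; intro x _
    simp only [hbV, hb0]; abel
  have sV : ‖∑ p ∈ T, aV p - (T.card : ℝ) • a₀‖ ≤ A * (K * N * (6 * L * m)) := by
    rw [← s0, ← sum_sub_distrib, hT, sum_product_right]
    refine (norm_sum_le _ _).trans ((sum_le_card_nsmul _ _ (K * N * (6 * L * m)) ?_).trans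
      (by simp))
    intro ρ _
    rw [hA3, sum_range_blocks]
    refine (norm_sum_le _ _).trans ((sum_le_card_nsmul _ _ (6 * L * m) ?_).trans (by simp))
    intro B _
    have := tele_norm (fun x => I (B % N + 1) x ρ - I 0 x ρ) (fun x => hI0 _ x ρ) (B * (W * m))
      (W * m)
    refine le_trans (le_of_eq ?_) (this.trans (le_of_eq (by ring)))
    congr 1
    apply sum_congr rfl; intro x hx
    simp only [haV, ha0, cv_const (mem_range.1 hx)]; abel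
  have v0 := variance T a0 a₀ (ε := 0) ha₀ (by rw [s0]; simp)
  have vH := variance T aH a₀ ha₀ sH
  have vV := variance T aV a₀ ha₀ sV
  have w0 := variance T b0 b₀ (ε := 0) hb₀ (by rw [s0']; simp)
  have wV := variance T bV b₀ hb₀ sV'
  have u0 : ∑ p ∈ T, ‖a0 p‖ ^ 2 ≤ T.card * as := by
    refine (sum_le_card_nsmul _ _ as fun p hp => ?_).trans (by simp)
    exact hpa _ (hmem p hp).1 _ (hmem p hp).2 _ (Or.inl rfl)
  have uH : ∑ p ∈ T, ‖aH p‖ ^ 2 ≤ T.card * as := by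
    refine (sum_le_card_nsmul _ _ as fun p hp => ?_).trans (by simp)
    exact hpa _ (hmem p hp).1 _ (hmem p hp).2 _ (Or.inr rfl)
  have z0 : ∑ p ∈ T, ‖b0 p‖ ^ 2 ≤ T.card * β +
      L ^ 2 / t₂ * (T.card * as - ∑ p ∈ T, ‖a0 p‖ ^ 2) := by
    refine (sum_le_sum fun p hp => hpb _ (hmem p hp).1 _ (hmem p hp).2 _ (Or.inl rfl)).trans ?_
    rw [sum_add_distrib, ← mul_sum, sum_sub_distrib]; simp [ha0]
  have zV : ∑ p ∈ T, ‖bV p‖ ^ 2 ≤ T.card * β +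
      L ^ 2 / t₂ * (T.card * as - ∑ p ∈ T, ‖aV p‖ ^ 2) := by
    refine (sum_le_sum fun p hp => hpb _ (hmem p hp).1 _ (hmem p hp).2 _ (Or.inr rfl)).trans ?_
    rw [sum_add_distrib, ← mul_sum, sum_sub_distrib]; simp [haV]
  have n0 : 0 ≤ ∑ p ∈ T, ‖a0 p - a₀‖ ^ 2 := sum_nonneg fun _ _ => sq_nonneg _
  have nV : 0 ≤ ∑ p ∈ T, ‖aV p - a₀‖ ^ 2 := sum_nonneg fun _ _ => sq_nonneg _
  have r1 := sum_norm_le T bV b0 b₀ hθ0
  have r2 := sum_norm_le T aH a0 a₀ (θ := θ / W) (by positivity)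
  rw [← sum_product' (f := fun α ρ => ‖bV (α, ρ) - b0 (α, ρ)‖),
    ← sum_product' (f := fun α ρ => ‖aH (α, ρ) - a0 (α, ρ)‖), ← hT] at hc
  rw [hTc] at *
  set n : ℝ := A * A with hn
  have hn0 : 0 < n := by positivity
  have hna := mul_le_mul_of_nonneg_left ha hn0.le
  have hnb := mul_le_mul_of_nonneg_left hb hn0.le
  have e5 : 2 * L * (A * (6 * L * m)) ≤ n * t₁ := by
    have := mul_le_mul_of_nonneg_left h5 hApos.le
    rw [hn]; linarith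
  have e6 : 2 * L * (A * (K * N * (6 * L * m))) = n * (12 * L ^ 2 / W) := by
    rw [hn]
    nth_rewrite 3 [hAR]
    field_simp
    ring
  have hq : 0 ≤ L ^ 2 / t₂ := by positivity
  have X0 : ∑ p ∈ T, ‖a0 p - a₀‖ ^ 2 ≤ n * t₁ := by linarith
  have XH : ∑ p ∈ T, ‖aH p - a₀‖ ^ 2 ≤ 2 * (n * t₁) := by linarith
  have D0 := mul_le_mul_of_nonneg_left
    (show n * as - ∑ p ∈ T, ‖a0 p‖ ^ 2 ≤ n * t₁ by linarith) hq
  have DV := mul_le_mul_of_nonneg_left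
    (show n * as - ∑ p ∈ T, ‖aV p‖ ^ 2 ≤ n * t₁ + n * (12 * L ^ 2 / W) by linarith) hq
  have g1 := mul_le_mul_of_nonneg_left h1 hn0.le
  have g2 := mul_le_mul_of_nonneg_left h2 hn0.le
  have g3 := mul_le_mul_of_nonneg_left h3 hn0.le
  have g4 := mul_le_mul_of_nonneg_left h4 hn0.le
  have Y0 : ∑ p ∈ T, ‖b0 p - b₀‖ ^ 2 ≤ 5 * (n * γ) := by linarith
  have YV : ∑ p ∈ T, ‖bV p - b₀‖ ^ 2 ≤ 5 * (n * γ) := by linarith
  have f1 : ∑ p ∈ T, ‖bV p - b0 p‖ ≤ 3 * θ * n := by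
    have : (∑ p ∈ T, ‖bV p - b₀‖ ^ 2 + ∑ p ∈ T, ‖b0 p - b₀‖ ^ 2) / θ ≤ θ * n := by
      rw [div_le_iff₀ hθ0]
      rw [hγ] at Y0 YV
      linarith
    linarith
  have f2 : ∑ p ∈ T, ‖aH p - a0 p‖ ≤ 3 * (θ / W) * n := by
    have : (∑ p ∈ T, ‖aH p - a₀‖ ^ 2 + ∑ p ∈ T, ‖a0 p - a₀‖ ^ 2) / (θ / W) ≤ θ / W * n := by
      rw [div_le_iff₀ (by positivity)]
      have : 0 ≤ n * (θ / W) ^ 2 := by positivity
      linarith
    linarith
  have f3 := mul_le_mul_of_nonneg_left f1 (show (0 : ℝ) ≤ m by positivity)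
  have f4 := mul_le_mul_of_nonneg_left f2 (show (0 : ℝ) ≤ W * m by positivity)
  push_cast at hc
  have e7 : (W * m : ℝ) * (3 * (θ / W) * n) = m * (3 * θ * n) := by field_simp
  have e8 : (K * (W * m) : ℝ) * (K * W * m) * (m / 2) = m * (8 * θ * n) := by
    rw [hn, hAR, hθ]; field_simp; ring
  have : 0 < m * (θ * n) := by positivity
  linarith

end Vale.Agent.P208
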