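import Vale.Agent.P208.Defs

namespace Vale.Agent.P208

open Finset
open scoped RealInnerProductSpace

def NN (n : ℕ) : ℕ := 2 ^ (Nat.unpair (Nat.unpair n).1).1
def WW (n : ℕ) : ℕ := 2 ^ (Nat.unpair (Nat.unpair n).1).2
noncomputable def hh (n : ℕ) : ℝ := 1 / 16 ^ n

lemma hh_pos (n : ℕ) : 0 < hh n := by unfold hh; positivity
lemma hh_succ (n : ℕ) : hh (n + 1) = hh n / 16 := by unfold hh; rw [pow_succ]; field_simp

def Strip (N c : ℕ) (s y : ℝ) : Prop :=
  ∃ z : ℤ, z % N + 1 = c ∧ z * s ≤ y ∧ y ≤ (z + 1) * s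

def Reg (n c : ℕ) (x y : ℝ) : Prop :=
  Strip (NN n) c (hh n) y ∨ Strip (NN n) c (WW n * hh n) x

variable {H : Type} [NormedAddCommGroup H] [InnerProductSpace ℝ H]

noncomputable def term (e : ℕ → H) (n c : ℕ) : H :=
  if c = 0 then 0 else hh n • e (Nat.pair n c + 2)

noncomputable def ht (e : ℕ → H) (c : ℕ → ℕ) (n₀ : ℕ) : H := ∑ n ∈ range n₀, term e n (c n)

noncomputable def pt (e : ℕ → H) (x y : ℝ) (w : H) : H := x • e 0 + y • e 1 + w

def Adm (x y : ℝ) (c : ℕ → ℕ) (n₀ : ℕ) : Prop :=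
  (∀ n, n₀ ≤ n → c n = 0) ∧ ∀ n, c n = 0 ∨ Reg n (c n) x y

def XX (e : ℕ → H) : Set H := {p | ∃ x y c n₀, Adm x y c n₀ ∧ p = pt e x y (ht e c n₀)}

lemma ht_mono (e : ℕ → H) {c : ℕ → ℕ} {n₀ n₁ : ℕ} (h : ∀ n, n₀ ≤ n → c n = 0) (h1 : n₀ ≤ n₁) :
    ht e c n₁ = ht e c n₀ := by
  unfold ht
  symm
  apply sum_subset (range_subset_range.2 h1)
  intro n _ hn
  simp only [mem_range, not_lt] at hn
  simp [term, h n hn]

variable {e : ℕ → H}

lemma norm_term (he : Orthonormal ℝ e) (n c : ℕ) : ‖term e n c‖ ≤ hh n := by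
  unfold term
  split_ifs
  · simp [(hh_pos n).le]
  · rw [norm_smul, he.1, Real.norm_eq_abs, abs_of_pos (hh_pos n), mul_one]

lemma inner_term (he : Orthonormal ℝ e) (i n c : ℕ) :
    ⟪e i, term e n c⟫ = if c ≠ 0 ∧ i = Nat.pair n c + 2 then hh n else 0 := by
  unfold term
  by_cases hc : c = 0
  · simp [hc]
  · simp [hc, inner_smul_right, orthonormal_iff_ite.1 he]

lemma inner_pt0 (he : Orthonormal ℝ e) (x y : ℝ) (c : ℕ → ℕ) (n₀ : ℕ) :
    ⟪e 0, pt e x y (ht e c n₀)⟫ = x := by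
  simp [pt, ht, inner_add_right, inner_smul_right, orthonormal_iff_ite.1 he, inner_sum,
    inner_term he, he.1]

lemma inner_pt1 (he : Orthonormal ℝ e) (x y : ℝ) (c : ℕ → ℕ) (n₀ : ℕ) :
    ⟪e 1, pt e x y (ht e c n₀)⟫ = y := by
  simp [pt, ht, inner_add_right, inner_smul_right, orthonormal_iff_ite.1 he, inner_sum,
    inner_term he, he.1]

lemma inner_ptc (he : Orthonormal ℝ e) (x y : ℝ) {c : ℕ → ℕ} {n₀ : ℕ}
    (h : ∀ n, n₀ ≤ n → c n = 0) (n : ℕ) {j : ℕ} (hj : j ≠ 0) :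
    ⟪e (Nat.pair n j + 2), pt e x y (ht e c n₀)⟫ = if c n = j then hh n else 0 := by
  rw [← ht_mono e h (le_max_left n₀ (n + 1))]
  simp only [pt, ht, inner_add_right, inner_smul_right, orthonormal_iff_ite.1 he, inner_sum,
    inner_term he]
  rw [sum_eq_single n]
  · by_cases h1 : c n = j
    · simp [h1, hj]
    · simp [h1, Ne.symm h1]
  · intro b _ hb
    simp [Ne.symm hb]
  · intro h; simp at h

lemma coord_le (he : Orthonormal ℝ e) (i : ℕ) (p q : H) : |⟪e i, p⟫ - ⟪e i, q⟫| ≤ dist p q := by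
  rw [← inner_sub_right, dist_eq_norm]
  simpa [he.1] using abs_real_inner_le_norm (e i) (p - q)

lemma color_eq (he : Orthonormal ℝ e) {x y x' y' : ℝ} {c c' : ℕ → ℕ} {n₀ n₁ : ℕ}
    (h : ∀ n, n₀ ≤ n → c n = 0) (h' : ∀ n, n₁ ≤ n → c' n = 0) (n : ℕ)
    (hd : dist (pt e x y (ht e c n₀)) (pt e x' y' (ht e c' n₁)) < hh n) : c n = c' n := by
  by_contra hne
  by_cases h0 : c n = 0
  · have := coord_le he (Nat.pair n (c' n) + 2) (pt e x y (ht e c n₀)) (pt e x' y' (ht e c' n₁))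
    rw [inner_ptc he _ _ h n (by omega), inner_ptc he _ _ h' n (by omega)] at this
    simp only [hne, if_false, if_true, zero_sub, abs_neg, abs_of_pos (hh_pos n)] at this
    linarith
  · have := coord_le he (Nat.pair n (c n) + 2) (pt e x y (ht e c n₀)) (pt e x' y' (ht e c' n₁))
    rw [inner_ptc he _ _ h n h0, inner_ptc he _ _ h' n h0] at this
    simp only [Ne.symm hne, if_false, if_true, sub_zero, abs_of_pos (hh_pos n)] at this
    linarith

lemma cover {α β : Type} [PseudoMetricSpace α] (S : Set α) (Λ : Finset β) (rel : α → β → Prop)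
    {ρ : ℝ} (h1 : ∀ p ∈ S, ∃ l ∈ Λ, rel p l)
    (h2 : ∀ p ∈ S, ∀ q ∈ S, ∀ l, rel p l → rel q l → dist p q < ρ) :
    ∃ T : Finset α, (T : Set α) ⊆ S ∧ T.card ≤ Λ.card ∧ S ⊆ ⋃ t ∈ T, Metric.ball t ρ := by
  classical
  let Λ' := {l // l ∈ Λ.filter fun l => ∃ p ∈ S, rel p l}
  have h : ∀ l : Λ', ∃ p ∈ S, rel p l := fun l => (mem_filter.1 l.2).2
  choose f hf1 hf2 using h
  refine ⟨univ.image f, ?_, ?_, ?_⟩
  · intro p hp
    simp only [coe_image, coe_univ, Set.image_univ, Set.mem_range] at hp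
    obtain ⟨l, rfl⟩ := hp
    exact hf1 l
  · refine card_image_le.trans ?_
    rw [card_univ, Fintype.card_coe]
    exact card_filter_le _ _
  · intro p hp
    obtain ⟨l, hl, hr⟩ := h1 p hp
    simp only [Set.mem_iUnion]
    exact ⟨f ⟨l, mem_filter.2 ⟨hl, p, hp, hr⟩⟩, mem_image_of_mem _ (mem_univ _),
      h2 p hp _ (hf1 _) l hr (hf2 _)⟩

lemma tail_sum (k d : ℕ) :
    ∑ n ∈ range (k + 1 + d), (if k < n then hh n else 0) ≤ (hh k - hh (k + d)) / 15 := by
  induction d with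
  | zero =>
    rw [sum_eq_zero]
    · simp
    · intro n hn
      rw [if_neg (by simp only [mem_range] at hn; omega)]
  | succ d ih =>
    rw [← add_assoc, sum_range_succ, if_pos (by omega), show k + 1 + d = k + d + 1 by ring,
      show k + (d + 1) = k + d + 1 by ring, hh_succ]
    rw [show k + 1 + d = k + d + 1 by ring] at ih
    linarith

lemma strip_mem {N c : ℕ} {s y y₀ : ℝ} (hs : 0 < s) (h : Strip N c s y) (hy : |y - y₀| < 16 * s) :
    (c : ℤ) ∈ (Icc (⌊y₀ / s⌋ - 17) (⌊y₀ / s⌋ + 17)).image fun z : ℤ => z % N + 1 := by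
  obtain ⟨z, h1, h2, h3⟩ := h
  refine mem_image.2 ⟨z, ?_, h1⟩
  rw [abs_lt] at hy
  have a1 := Int.floor_le (y₀ / s)
  have a2 := Int.lt_floor_add_one (y₀ / s)
  rw [le_div_iff₀ hs] at a1
  rw [div_lt_iff₀ hs] at a2
  rw [mem_Icc]
  constructor
  · have : ((⌊y₀ / s⌋ - 17 : ℤ) : ℝ) ≤ z := by
      push_cast
      apply le_of_mul_le_mul_right _ hs
      linarith
    exact_mod_cast this
  · have : (z : ℝ) ≤ ((⌊y₀ / s⌋ + 17 : ℤ) : ℝ) := by
      push_cast
      apply le_of_mul_le_mul_right _ hs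
      linarith
    exact_mod_cast this

lemma floor_mem {r x : ℝ} (hr : 0 < r) (h : |x| ≤ r) : ⌊x / (r / 16)⌋ ∈ Icc (-16 : ℤ) 16 := by
  rw [abs_le] at h
  rw [mem_Icc, Int.le_floor]
  constructor
  · rw [le_div_iff₀ (by positivity)]; push_cast; linarith
  · have : x / (r / 16) ≤ (16 : ℤ) := by rw [div_le_iff₀ (by positivity)]; push_cast; linarith
    simpa using Int.floor_mono this

lemma floor_close {r x x' : ℝ} (hr : 0 < r) (h : ⌊x / (r / 16)⌋ = ⌊x' / (r / 16)⌋) :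
    |x - x'| ≤ r / 16 := by
  have := Int.abs_sub_lt_one_of_floor_eq_floor h
  rw [← sub_div, abs_div, abs_of_pos (show 0 < r / 16 by positivity),
    div_lt_one (by positivity)] at this
  exact this.le

theorem doubling (he : Orthonormal ℝ e) : Doubling (XX e) := by
  classical
  refine ⟨33 * (33 * 71), ?_⟩
  rintro p₀ ⟨x₀, y₀, c₀, n₀, h₀, rfl⟩ r hr
  have hex : ∃ n, hh n ≤ r := by
    obtain ⟨n, hn⟩ := exists_pow_lt_of_lt_one hr (show (1 / 16 : ℝ) < 1 by norm_num)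
    exact ⟨n, by unfold hh; rw [← one_div_pow]; exact hn.le⟩
  set k := Nat.find hex with hk
  have hk1 : hh k ≤ r := Nat.find_spec hex
  have hk2 : ∀ n < k, r < hh n := fun n hn => not_le.1 (Nat.find_min hex hn)
  let C : Finset ℤ := insert 0
    (((Icc (⌊y₀ / hh k⌋ - 17) (⌊y₀ / hh k⌋ + 17)).image fun z : ℤ => z % (NN k) + 1) ∪
    ((Icc (⌊x₀ / (WW k * hh k)⌋ - 17) (⌊x₀ / (WW k * hh k)⌋ + 17)).image
      fun z : ℤ => z % (NN k) + 1))
  have hI : ∀ a : ℤ, (Icc (a - 17) (a + 17)).card = 35 := fun a => by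
    rw [Int.card_Icc]; omega
  have hC : C.card ≤ 71 := by
    refine (card_insert_le _ _).trans ?_
    have := (card_union_le _ _).trans (add_le_add
      ((card_image_le (f := fun z : ℤ => z % (NN k) + 1)).trans (hI ⌊y₀ / hh k⌋).le)
      ((card_image_le (f := fun z : ℤ => z % (NN k) + 1)).trans (hI ⌊x₀ / (WW k * hh k)⌋).le))
    omega
  refine (cover (XX e ∩ Metric.closedBall (pt e x₀ y₀ (ht e c₀ n₀)) r)
    (Icc (-16 : ℤ) 16 ×ˢ (Icc (-16 : ℤ) 16 ×ˢ C))
    (fun p l => ∃ x y c n, Adm x y c n ∧ p = pt e x y (ht e c n) ∧ ⌊(x - x₀) / (r / 16)⌋ = l.1 ∧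
      ⌊(y - y₀) / (r / 16)⌋ = l.2.1 ∧ (if r < 16 * hh k then (c k : ℤ) else 0) = l.2.2)
    (ρ := r / 2) ?_ ?_).elim ?_
  rotate_left 2
  · rintro T ⟨hT1, hT2, hT3⟩
    refine ⟨T, hT1.trans Set.inter_subset_left, hT2.trans ?_, hT3⟩
    simp only [card_product, Int.card_Icc]
    exact Nat.mul_le_mul (by norm_num) (Nat.mul_le_mul (by norm_num) hC)
  · rintro p ⟨⟨x, y, c, n, h, rfl⟩, hp⟩
    rw [Metric.mem_closedBall] at hp
    have hx := (coord_le he 0 _ _).trans hp
    have hy := (coord_le he 1 _ _).trans hp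
    rw [inner_pt0 he, inner_pt0 he] at hx
    rw [inner_pt1 he, inner_pt1 he] at hy
    refine ⟨(⌊(x - x₀) / (r / 16)⌋, ⌊(y - y₀) / (r / 16)⌋,
      if r < 16 * hh k then (c k : ℤ) else 0), ?_, x, y, c, n, h, rfl, rfl, rfl, rfl⟩
    simp only [mem_product]
    refine ⟨floor_mem hr hx, floor_mem hr hy, ?_⟩
    split_ifs with h1
    · rcases h.2 k with h2 | h2 | h2
      · simp [C, h2]
      · exact mem_insert_of_mem (mem_union_left _ (strip_mem (hh_pos k) h2 (by linarith)))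
      · have hW : (1 : ℝ) ≤ WW k := by exact_mod_cast Nat.one_le_two_pow
        have := hh_pos k
        exact mem_insert_of_mem (mem_union_right _ (strip_mem (by positivity) h2 (by nlinarith)))
    · exact mem_insert_self _ _
  · rintro p ⟨_, hp⟩ q ⟨_, hq⟩ l ⟨x, y, c, n, h, rfl, h1, h2, h3⟩ ⟨x', y', c', n', h', rfl, h1', h2', h3'⟩
    rw [Metric.mem_closedBall] at hp hq
    have hx := floor_close hr (h1.trans h1'.symm)
    have hy := floor_close hr (h2.trans h2'.symm)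
    rw [sub_sub_sub_cancel_right] at hx hy
    rw [← ht_mono e h.1 (n₁ := k + 1 + (n + n')) (by omega),
      ← ht_mono e h'.1 (n₁ := k + 1 + (n + n')) (by omega), dist_eq_norm]
    have e1 : pt e x y (ht e c (k + 1 + (n + n'))) - pt e x' y' (ht e c' (k + 1 + (n + n'))) =
        (x - x') • e 0 + (y - y') • e 1 +
          ∑ i ∈ range (k + 1 + (n + n')), (term e i (c i) - term e i (c' i)) := by
      simp only [pt, ht, sum_sub_distrib, sub_smul]; abel
    have b1 : ∀ i, ‖term e i (c i) - term e i (c' i)‖ ≤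
        (if i = k then r / 8 else 0) + 2 * (if k < i then hh i else 0) := by
      intro i
      have b := (norm_sub_le _ _).trans (add_le_add (norm_term he i (c i)) (norm_term he i (c' i)))
      rcases lt_trichotomy i k with hi | hi | hi
      · rw [color_eq he h.1 h₀.1 i (hp.trans_lt (hk2 i hi)),
          color_eq he h'.1 h₀.1 i (hq.trans_lt (hk2 i hi)), if_neg hi.ne, if_neg (by omega)]
        simp
      · subst hi
        simp only [if_true, lt_irrefl, if_false, mul_zero, add_zero]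
        by_cases h4 : r < 16 * hh k
        · simp only [h4, if_true] at h3 h3'
          have : c k = c' k := by exact_mod_cast h3.trans h3'.symm
          rw [this]; simp; positivity
        · linarith
      · rw [if_neg hi.ne', if_pos hi]; linarith
    have b2 := (norm_sum_le (range (k + 1 + (n + n'))) _).trans (sum_le_sum fun i _ => b1 i)
    rw [sum_add_distrib, ← mul_sum, sum_ite_eq', if_pos (by simp; omega)] at b2
    have b3 := tail_sum k (n + n')
    have b4 := hh_pos (k + (n + n'))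
    have b5 := (norm_add_le _ _).trans (add_le_add (norm_add_le ((x - x') • e 0) ((y - y') • e 1)) b2)
    rw [← e1, norm_smul, norm_smul, he.1, he.1, Real.norm_eq_abs, Real.norm_eq_abs] at b5
    linarith

end Vale.Agent.P208
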