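import Vale.Agent.P208.Slope
import Vale.Agent.P208.Space

namespace Vale.Agent.P208

open Finset Function

structure Patch where
  c : ℕ → ℕ
  n₀ : ℕ
  j : ℕ
  u : ℤ
  v : ℤ
  adm : ∀ x y : ℝ, u / 2 ^ j ≤ x → x ≤ (u + 1) / 2 ^ j → v / 2 ^ j ≤ y → y ≤ (v + 1) / 2 ^ j →
    Adm x y c n₀

instance : Nonempty Patch := ⟨⟨fun _ => 0, 0, 0, 0, 0, fun _ _ _ _ _ _ =>
  ⟨fun _ _ => rfl, fun _ => Or.inl rfl⟩⟩⟩

lemma strip_sub {N M C α : ℕ} (hM : 0 < M) {u : ℤ} {q y : ℝ} (hq : 0 < q)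
    (h1 : (u * (C * N * M : ℕ) + α) / q ≤ y) (h2 : y ≤ (u * (C * N * M : ℕ) + α + 1) / q) :
    Strip N (cv N M α) (M / q) y := by
  refine ⟨u * C * N + (α / M : ℕ), ?_, ?_, ?_⟩
  · unfold cv
    rw [add_comm (u * C * N), Int.add_mul_emod_self_right]
    push_cast; rfl
  · refine le_trans ?_ h1
    rw [← mul_div_assoc]
    gcongr
    have : ((α / M * M : ℕ) : ℝ) ≤ α := by exact_mod_cast Nat.div_mul_le_self α M
    simp only [Int.cast_add, Int.cast_mul, Int.cast_natCast, Nat.cast_mul] at this ⊢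
    linarith
  · refine h2.trans ?_
    rw [← mul_div_assoc]
    gcongr
    have : ((α + 1 : ℕ) : ℝ) ≤ ((α / M + 1) * M : ℕ) := by
      exact_mod_cast Nat.succ_le_of_lt (by rw [mul_comm]; exact Nat.lt_mul_div_succ α hM)
    simp only [Int.cast_add, Int.cast_mul, Int.cast_natCast, Nat.cast_mul, Nat.cast_add,
      Nat.cast_one] at this ⊢
    linarith

lemma sub_range {A α : ℕ} (hα : α < A) {u q x : ℝ} (hq : 0 < q)
    (h1 : (u * A + α) / (q * A) ≤ x) (h2 : x ≤ (u * A + α + 1) / (q * A)) :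
    u / q ≤ x ∧ x ≤ (u + 1) / q := by
  have hA : (0 : ℝ) < A := by exact_mod_cast (by omega : 0 < A)
  have h3 : (α : ℝ) + 1 ≤ A := by exact_mod_cast hα
  have h4 : (0 : ℝ) ≤ α := Nat.cast_nonneg α
  constructor
  · refine le_trans ?_ h1
    rw [div_le_div_iff₀ hq (by positivity)]
    nlinarith
  · refine h2.trans ?_
    rw [div_le_div_iff₀ (by positivity) hq]
    nlinarith

variable {H : Type} [NormedAddCommGroup H] [InnerProductSpace ℝ H] {e : ℕ → H}

lemma ht_update (e : ℕ → H) {c : ℕ → ℕ} {n₀ n : ℕ} (h : ∀ n, n₀ ≤ n → c n = 0) (hn : n₀ ≤ n)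
    (k : ℕ) : ht e (update c n k) (n + 1) = ht e c n₀ + term e n k := by
  rw [← ht_mono e h hn, ht, sum_range_succ, update_self]
  congr 1
  exact sum_congr rfl fun i hi => by rw [update_of_ne (mem_range.1 hi).ne]

lemma adm_update {x y : ℝ} {c : ℕ → ℕ} {n₀ n k : ℕ} (h : Adm x y c n₀) (hn : n₀ ≤ n)
    (hk : k = 0 ∨ Reg n k x y) : Adm x y (update c n k) (n + 1) := by
  refine ⟨fun i hi => by rw [update_of_ne (by omega)]; exact h.1 i (by omega), fun i => ?_⟩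
  by_cases hi : i = n
  · subst hi; simpa using hk
  · rw [update_of_ne hi]; exact h.2 i

set_option maxHeartbeats 800000 in
theorem no_embed (he : Orthonormal ℝ e) {E : Type} [NormedAddCommGroup E] [InnerProductSpace ℝ E]
    [FiniteDimensional ℝ E] (F : H → E) {L : ℝ} (hL : 0 ≤ L)
    (hF : ∀ p q, ‖F p - F q‖ ≤ L * ‖p - q‖)
    (hlow : ∀ p ∈ XX e, ∀ q ∈ XX e, ‖p - q‖ ≤ ‖F p - F q‖) : False := by
  haveI : CompleteSpace E := FiniteDimensional.complete ℝ E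
  let g : H → ℝ → ℝ → E := fun w x y => F (pt e x y w)
  have hg : ∀ w, Lip (g w) L := by
    intro w x y x' y'
    refine (hF _ _).trans (mul_le_mul_of_nonneg_left ?_ hL)
    have : pt e x y w - pt e x' y' w = (x - x') • e 0 + (y - y') • e 1 := by
      simp only [pt, sub_smul]; abel
    rw [this]
    refine (norm_add_le _ _).trans (le_of_eq ?_)
    rw [norm_smul, norm_smul, he.1, he.1]; simp
  let a : Patch → E := fun P => II (g (ht e P.c P.n₀)) (2 ^ P.j) (P.u + 1) P.v -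
    II (g (ht e P.c P.n₀)) (2 ^ P.j) P.u P.v
  let b : Patch → E := fun P => II (fun x y => g (ht e P.c P.n₀) y x) (2 ^ P.j) (P.v + 1) P.u -
    II (fun x y => g (ht e P.c P.n₀) y x) (2 ^ P.j) P.v P.u
  have ha : ∀ P, ‖a P‖ ≤ L := fun P => II_step (hg _) hL (by positivity) _ _
  have hb : ∀ P, ‖b P‖ ≤ L := fun P => II_step (hg _).swap hL (by positivity) _ _
  obtain ⟨N₀, hpack⟩ := packing (E := E) L
  set N := 2 ^ N₀ with hNdef
  have hN : 0 < N := by positivity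
  obtain ⟨κ, hκ⟩ := pow_unbounded_of_one_lt (32 * L) (one_lt_two (α := ℝ))
  set m := 2 ^ κ with hmdef
  have hm : 0 < m := by positivity
  set θ : ℝ := 1 / (16 * (N : ℝ) ^ 2) with hθ
  have hθ0 : 0 < θ := by positivity
  set γ := θ ^ 2 / 10 with hγ
  have hγ0 : 0 < γ := by positivity
  obtain ⟨as, β, t₂, ht₂, hβ, has, hbs, hP⟩ := lex (fun P => ‖a P‖ ^ 2) (fun P => ‖b P‖ ^ 2)
    (C := L ^ 2) (fun P => by have := ha P; gcongr) (fun P => by have := hb P; gcongr)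
    (fun P => by positivity) hγ0
  obtain ⟨ω, hω⟩ := pow_unbounded_of_one_lt (L ^ 2 / t₂ * (12 * L ^ 2) / γ) (one_lt_two (α := ℝ))
  set W := 2 ^ ω with hWdef
  have hW : 0 < W := by positivity
  have hW' : (0 : ℝ) < W := by positivity
  obtain ⟨t₁, ht₁, h1, h2, h4⟩ : ∃ t₁ : ℝ, 0 < t₁ ∧ t₁ ≤ γ ∧ L ^ 2 / t₂ * t₁ ≤ γ ∧
      t₁ ≤ (θ / W) ^ 2 / 4 := by
    refine ⟨min (γ / (L ^ 2 / t₂ + 1)) ((θ / W) ^ 2 / 4), by positivity, ?_, ?_, min_le_right _ _⟩
    · exact (min_le_left _ _).trans (div_le_self hγ0.le (le_add_of_nonneg_left (by positivity)))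
    · have := min_le_left (γ / (L ^ 2 / t₂ + 1)) ((θ / W) ^ 2 / 4)
      rw [le_div_iff₀ (by positivity)] at this
      have h0 : 0 ≤ min (γ / (L ^ 2 / t₂ + 1)) ((θ / W) ^ 2 / 4) := by positivity
      linarith
  obtain ⟨P, hPa, hPb⟩ := hP t₁ ht₁
  obtain ⟨n₁, hn₁⟩ := exists_nat_ge (12 * L ^ 2 / t₁)
  set n := Nat.pair (Nat.pair N₀ ω) (n₁ + P.n₀ + (P.j + N₀ + ω)) with hn
  have hnn : n₁ + P.n₀ + (P.j + N₀ + ω) ≤ n := Nat.right_le_pair _ _
  have hNN : NN n = N := by simp [NN, hn, hNdef]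
  have hWW : WW n = W := by simp [WW, hn, hWdef]
  obtain ⟨d, hd⟩ : ∃ d, 4 * n = P.j + N₀ + ω + d := ⟨4 * n - (P.j + N₀ + ω), by omega⟩
  set K := 2 ^ d with hKdef
  have hK : 0 < K := by positivity
  set A := K * (N * (W * m)) with hA
  have hApos : 0 < A := by positivity
  have hq : (2 : ℝ) ^ (4 * n + κ) = 2 ^ P.j * A := by
    rw [hd, hA, hKdef, hNdef, hWdef, hmdef]; push_cast; ring
  set q : ℝ := 2 ^ P.j * A with hqdef
  have hq0 : 0 < q := by positivity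
  have hhq : hh n = m / q := by
    rw [← hq, hh, hmdef, pow_add, pow_mul]; push_cast; field_simp; norm_num
  let w : ℕ → H := fun c => ht e P.c P.n₀ + term e n c
  have hsub : ∀ α < A, ∀ ρ < A, ∀ c, (c = 0 ∨ c = cv N m ρ ∨ c = cv N (W * m) α) →
      ∀ x y : ℝ, (P.u * A + α) / q ≤ x → x ≤ (P.u * A + α + 1) / q → (P.v * A + ρ) / q ≤ y →
      y ≤ (P.v * A + ρ + 1) / q → Adm x y (update P.c n c) (n + 1) := by
    intro α hα ρ hρ c hc x y h1 h2 h3 h4
    obtain ⟨a1, a2⟩ := sub_range hα (by positivity) h1 h2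
    obtain ⟨a3, a4⟩ := sub_range hρ (by positivity) h3 h4
    apply adm_update (P.adm x y a1 a2 a3 a4) (by omega)
    rcases hc with rfl | rfl | rfl
    · exact Or.inl rfl
    · refine Or.inr (Or.inl ?_)
      rw [hNN, hhq]
      have e : A = K * W * N * m := by rw [hA]; ring
      exact strip_sub (C := K * W) (u := P.v) hm hq0 (e ▸ h3) (e ▸ h4)
    · refine Or.inr (Or.inr ?_)
      rw [hNN, hhq, hWW, ← mul_div_assoc, ← Nat.cast_mul]
      have e : A = K * N * (W * m) := by rw [hA]; ring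
      exact strip_sub (C := K) (u := P.u) (by positivity) hq0 (e ▸ h1) (e ▸ h2)
  have h0 : ∀ i, P.n₀ ≤ i → P.c i = 0 :=
    (P.adm (P.u / 2 ^ P.j) (P.v / 2 ^ P.j) le_rfl (by gcongr; linarith) le_rfl
      (by gcongr; linarith)).1
  have hw : ∀ c, ht e (update P.c n c) (n + 1) = w c := fun c => ht_update e h0 (by omega) c
  have hw0 : w 0 = ht e P.c P.n₀ := by simp [w, term]
  let I : ℕ → ℕ → ℕ → E := fun c α ρ => II (g (w c)) q (P.u * A + α) (P.v * A + ρ)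
  let J : ℕ → ℕ → ℕ → E := fun c α ρ => II (fun x y => g (w c) y x) q (P.v * A + ρ) (P.u * A + α)
  let G : ℕ → ℕ → ℕ → E := fun c α ρ => q • g (w c) ((P.u * A + α) / q) ((P.v * A + ρ) / q)
  have hpatch : ∀ α < A, ∀ ρ < A, ∀ c, (c = 0 ∨ c = cv N m ρ ∨ c = cv N (W * m) α) →
      ∃ Q : Patch, a Q = I c (α + 1) ρ - I c α ρ ∧ b Q = J c α (ρ + 1) - J c α ρ := by
    intro α hα ρ hρ c hc
    refine ⟨⟨update P.c n c, n + 1, 4 * n + κ, P.u * A + α, P.v * A + ρ, ?_⟩, ?_, ?_⟩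
    · intro x y
      rw [hq]
      push_cast
      exact hsub α hα ρ hρ c hc x y
    · simp only [a, I, hw, hq]; push_cast; simp only [add_assoc]
    · simp only [b, J, hw, hq]; push_cast; simp only [add_assoc]
  refine energy I J G (L := L) hN hK hW hm hA hL (fun c α ρ => II_point (hg _) hL hq0 _ _)
    (fun c α ρ => II_point (hg _).swap hL hq0 _ _) ?_ ?_
    (hpack N Nat.lt_two_pow_self m (by positivity)) (by rw [hmdef]; push_cast; exact hκ.le)
    (ha P) (hb P) ?_ ?_ hθ hγ ht₁ ht₂ h1 h2 ?_ h4 ?_ hPa hPb ?_ ?_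
  · intro c α ρ
    simp only [G, g]
    rw [← smul_sub, norm_smul, Real.norm_eq_abs, abs_of_pos hq0]
    have b1 := hF (pt e ((P.u * A + α) / q) ((P.v * A + ρ) / q) (w c))
      (pt e ((P.u * A + α) / q) ((P.v * A + ρ) / q) (w 0))
    have b2 : pt e ((P.u * A + α) / q) ((P.v * A + ρ) / q) (w c) -
      pt e ((P.u * A + α) / q) ((P.v * A + ρ) / q) (w 0) = term e n c := by
      rw [hw0]; simp only [pt, w]; abel
    rw [b2] at b1
    calc _ ≤ q * (L * hh n) := by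
          gcongr
          exact b1.trans (mul_le_mul_of_nonneg_left (norm_term he n c) hL)
      _ = _ := by rw [hhq]; field_simp
  · intro α hα ρ hρ hne
    simp only [G, g]
    rw [← smul_sub, norm_smul, Real.norm_eq_abs, abs_of_pos hq0, ← hw, ← hw]
    have l1 : ∀ t : ℝ, t / q ≤ (t + 1) / q := fun t => by gcongr; linarith
    have m1 := hsub α hα ρ hρ _ (Or.inr (Or.inr rfl)) _ _ le_rfl (l1 _) le_rfl (l1 _)
    have m2 := hsub α hα ρ hρ _ (Or.inr (Or.inl rfl)) _ _ le_rfl (l1 _) le_rfl (l1 _)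
    have b1 := hlow _ ⟨_, _, _, _, m1, rfl⟩ _ ⟨_, _, _, _, m2, rfl⟩
    have b2 := not_lt.1 (mt (color_eq he (x := (P.u * A + α) / q) (y := (P.v * A + ρ) / q)
      (x' := (P.u * A + α) / q) (y' := (P.v * A + ρ) / q) m1.1 m2.1 n)
      (by rwa [update_self, update_self]))
    rw [dist_eq_norm, hhq, div_le_iff₀ hq0] at b2
    calc (m : ℝ) ≤ _ := b2
      _ ≤ _ := by rw [mul_comm]; gcongr
  · rw [sum_comm]
    simp only [I, a, hw0]
    exact II_add (hg _) hL (by positivity) hApos _ _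
  · simp only [J, b, hw0]
    exact II_add (hg _).swap hL (by positivity) hApos _ _
  · rw [div_lt_iff₀ hγ0] at hω
    rw [← mul_div_assoc, div_le_iff₀ hW', hWdef]
    push_cast
    linarith
  · rw [div_le_iff₀ ht₁] at hn₁
    have b1 : n₁ ≤ K * (N * W) := by
      have : d < K := Nat.lt_two_pow_self
      exact le_trans (by omega) (Nat.le_mul_of_pos_right K (by positivity))
    have b2 : (n₁ : ℝ) * m ≤ A := by
      rw [hA]
      exact_mod_cast (Nat.mul_le_mul_right m b1).trans (le_of_eq (by ring))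
    have b3 : (0 : ℝ) ≤ m := by positivity
    have b4 := mul_le_mul_of_nonneg_right hn₁ b3
    have b5 := mul_le_mul_of_nonneg_right b2 ht₁.le
    linarith
  · intro α hα ρ hρ c hc
    obtain ⟨Q, h1, -⟩ := hpatch α hα ρ hρ c (hc.imp_right Or.inl)
    rw [← h1]; exact has Q
  · intro α hα ρ hρ c hc
    obtain ⟨Q, h1, h2⟩ := hpatch α hα ρ hρ c (hc.imp_right Or.inr)
    rw [← h1, ← h2]
    have b0 := has Q
    by_cases h : as - t₂ ≤ ‖a Q‖ ^ 2
    · have := hbs Q h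
      have : 0 ≤ L ^ 2 / t₂ * (as - ‖a Q‖ ^ 2) := mul_nonneg (by positivity) (by linarith)
      linarith
    · have b1 : ‖b Q‖ ^ 2 ≤ L ^ 2 := by have := hb Q; gcongr
      have b2 : L ^ 2 / t₂ * t₂ ≤ L ^ 2 / t₂ * (as - ‖a Q‖ ^ 2) :=
        mul_le_mul_of_nonneg_left (by linarith) (by positivity)
      rw [div_mul_cancel₀ _ ht₂.ne'] at b2
      linarith

theorem not_biLip (he : Orthonormal ℝ e) (k : ℕ) (D : ℝ) (f : XX e → EuclideanSpace ℝ (Fin k)) :
    ¬ BiLip (XX e) k D f := by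
  classical
  rintro ⟨a, ha, h⟩
  let f' : H → EuclideanSpace ℝ (Fin k) := fun p => if hp : p ∈ XX e then a⁻¹ • f ⟨p, hp⟩ else 0
  have hd : ∀ p (hp : p ∈ XX e) q (hq : q ∈ XX e),
      dist (f' p) (f' q) = a⁻¹ * dist (f ⟨p, hp⟩) (f ⟨q, hq⟩) := by
    intro p hp q hq
    simp only [f', dif_pos hp, dif_pos hq, dist_smul₀, norm_inv, Real.norm_eq_abs, abs_of_pos ha]
  have hl : LipschitzOnWith D.toNNReal f' (XX e) := by
    apply LipschitzOnWith.of_dist_le'
    intro p hp q hq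
    rw [hd p hp q hq, inv_mul_le_iff₀ ha]
    have := (h ⟨p, hp⟩ ⟨q, hq⟩).2
    rw [Subtype.dist_eq] at this
    linarith
  obtain ⟨F, hF, hFe⟩ := hl.extend_finite_dimension
  refine no_embed he F (NNReal.coe_nonneg _) (fun p q => by
    simpa only [dist_eq_norm] using hF.dist_le_mul p q) fun p hp q hq => ?_
  rw [← hFe hp, ← hFe hq, ← dist_eq_norm, ← dist_eq_norm, hd p hp q hq, le_inv_mul_iff₀ ha]
  exact (h ⟨p, hp⟩ ⟨q, hq⟩).1

end Vale.Agent.P208
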