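import Vale.Agent.P208.Energy

namespace Vale.Agent.P208

open Finset

variable {E : Type} [NormedAddCommGroup E] [InnerProductSpace ℝ E] [CompleteSpace E]

def Lip (g : ℝ → ℝ → E) (L : ℝ) : Prop := ∀ x y x' y', ‖g x y - g x' y'‖ ≤ L * (|x - x'| + |y - y'|)

lemma Lip.swap {g : ℝ → ℝ → E} {L : ℝ} (h : Lip g L) : Lip (fun x y => g y x) L :=
  fun x y x' y' => by rw [add_comm]; exact h y x y' x'

lemma Lip.cont {g : ℝ → ℝ → E} {L : ℝ} (h : Lip g L) (hL : 0 ≤ L) (x : ℝ) : Continuous (g x) := by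
  apply LipschitzWith.continuous (K := L.toNNReal)
  apply LipschitzWith.of_dist_le_mul
  intro s t
  simpa [dist_eq_norm, hL] using h x s x t

noncomputable def II (g : ℝ → ℝ → E) (q u v : ℝ) : E :=
  q ^ 2 • ∫ s in v / q..(v + 1) / q, g (u / q) s

lemma II_point {g : ℝ → ℝ → E} {L : ℝ} (h : Lip g L) (hL : 0 ≤ L) {q : ℝ} (hq : 0 < q)
    (u v : ℝ) : ‖II g q u v - q • g (u / q) (v / q)‖ ≤ L := by
  have e0 : (v + 1) / q - v / q = 1 / q := by ring
  have e : II g q u v - q • g (u / q) (v / q) =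
      q ^ 2 • ∫ s in v / q..(v + 1) / q, (g (u / q) s - g (u / q) (v / q)) := by
    rw [intervalIntegral.integral_sub ((h.cont hL _).intervalIntegrable _ _) (by simp),
      intervalIntegral.integral_const, e0, smul_sub, smul_smul, II]
    congr 2
    field_simp
  have b := intervalIntegral.norm_integral_le_of_norm_le_const (a := v / q) (b := (v + 1) / q)
    (C := L * (1 / q)) (f := fun s => g (u / q) s - g (u / q) (v / q)) (by
      intro s hs
      rw [Set.uIoc_of_le (by gcongr; linarith)] at hs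
      refine (h _ _ _ _).trans (mul_le_mul_of_nonneg_left ?_ hL)
      rw [sub_self, abs_zero, zero_add, abs_of_nonneg (by linarith [hs.1])]
      linarith [hs.2])
  rw [e0, abs_of_pos (by positivity)] at b
  rw [e, norm_smul, Real.norm_eq_abs, abs_of_pos (by positivity)]
  calc _ ≤ q ^ 2 * (L * (1 / q) * (1 / q)) := by gcongr
    _ = L := by field_simp

lemma II_step {g : ℝ → ℝ → E} {L : ℝ} (h : Lip g L) (hL : 0 ≤ L) {q : ℝ} (hq : 0 < q)
    (u v : ℝ) : ‖II g q (u + 1) v - II g q u v‖ ≤ L := by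
  have e0 : (v + 1) / q - v / q = 1 / q := by ring
  have e1 : (u + 1) / q - u / q = 1 / q := by ring
  rw [II, II, ← smul_sub, ← intervalIntegral.integral_sub ((h.cont hL _).intervalIntegrable _ _)
    ((h.cont hL _).intervalIntegrable _ _)]
  have b := intervalIntegral.norm_integral_le_of_norm_le_const (a := v / q) (b := (v + 1) / q)
    (C := L * (1 / q)) (f := fun s => g ((u + 1) / q) s - g (u / q) s) (by
      intro s _
      refine (h _ _ _ _).trans (le_of_eq ?_)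
      rw [sub_self, abs_zero, add_zero, e1, abs_of_pos (by positivity)])
  rw [e0, abs_of_pos (by positivity)] at b
  rw [norm_smul, Real.norm_eq_abs, abs_of_pos (by positivity)]
  calc _ ≤ q ^ 2 * (L * (1 / q) * (1 / q)) := by gcongr
    _ = L := by field_simp

lemma II_sum {g : ℝ → ℝ → E} {L : ℝ} (h : Lip g L) (hL : 0 ≤ L) {q : ℝ} (hq : 0 < q) {A : ℕ}
    (hA : 0 < A) (u v : ℝ) :
    ∑ ρ ∈ range A, II g (q * A) (u * A) (v * A + ρ) = ((A : ℝ) * A) • II g q u v := by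
  have hA' : (0 : ℝ) < A := by exact_mod_cast hA
  have e := intervalIntegral.sum_integral_adjacent_intervals (μ := MeasureTheory.volume)
    (f := g (u / q)) (a := fun k : ℕ => (v * A + k) / (q * A)) (n := A)
    (fun k _ => (h.cont hL _).intervalIntegrable _ _)
  have e1 : u * A / (q * A) = u / q := by field_simp
  have e2 : (v * A + (0 : ℕ)) / (q * A) = v / q := by push_cast; field_simp; ring
  have e3 : (v * A + (A : ℕ)) / (q * A) = (v + 1) / q := by field_simp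
  simp only [e2, e3] at e
  simp only [II, e1, ← smul_sum, smul_smul]
  push_cast at e
  simp only [← add_assoc] at e
  rw [e]
  congr 1; ring

lemma II_add {g : ℝ → ℝ → E} {L : ℝ} (h : Lip g L) (hL : 0 ≤ L) {q : ℝ} (hq : 0 < q) {A : ℕ}
    (hA : 0 < A) (u v : ℝ) :
    ∑ ρ ∈ range A, ∑ α ∈ range A, (II g (q * A) (u * A + ((α + 1 : ℕ) : ℝ)) (v * A + ρ) -
      II g (q * A) (u * A + α) (v * A + ρ)) = ((A : ℝ) * A) • (II g q (u + 1) v - II g q u v) := by
  rw [smul_sub, ← II_sum h hL hq hA, ← II_sum h hL hq hA, ← sum_sub_distrib]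
  apply sum_congr rfl
  intro ρ _
  rw [sum_range_sub (fun α : ℕ => II g (q * A) (u * A + α) (v * A + ρ))]
  congr 2
  · ring
  · simp

lemma lex {P : Type} [Nonempty P] (a b : P → ℝ) {C : ℝ} (ha : ∀ p, a p ≤ C) (hb : ∀ p, b p ≤ C)
    (hb0 : ∀ p, 0 ≤ b p) {γ : ℝ} (hγ : 0 < γ) :
    ∃ as β t₂ : ℝ, 0 < t₂ ∧ 0 ≤ β ∧ (∀ p, a p ≤ as) ∧ (∀ p, as - t₂ ≤ a p → b p ≤ β) ∧
      ∀ t₁ : ℝ, 0 < t₁ → ∃ p, as - t₁ ≤ a p ∧ β - 2 * γ ≤ b p := by
  have hba : BddAbove (Set.range a) := ⟨C, by rintro _ ⟨p, rfl⟩; exact ha p⟩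
  set as := sSup (Set.range a)
  have hne : ∀ t : ℝ, 0 < t → (b '' {p | as - t ≤ a p}).Nonempty := by
    intro t ht
    obtain ⟨_, ⟨p, rfl⟩, hp⟩ := exists_lt_of_lt_csSup (Set.range_nonempty a)
      (show as - t < as by linarith)
    exact ⟨_, p, hp.le, rfl⟩
  have hbd : ∀ t : ℝ, BddAbove (b '' {p | as - t ≤ a p}) :=
    fun t => ⟨C, by rintro _ ⟨p, _, rfl⟩; exact hb p⟩
  set β : ℝ → ℝ := fun t => sSup (b '' {p | as - t ≤ a p}) with hβ
  have hβ0 : ∀ t : ℝ, 0 < t → 0 ≤ β t := by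
    intro t ht
    obtain ⟨_, p, hp, rfl⟩ := hne t ht
    exact (hb0 p).trans (le_csSup (hbd t) ⟨p, hp, rfl⟩)
  have hbb : BddBelow (β '' Set.Ioi 0) := ⟨0, by rintro _ ⟨t, ht, rfl⟩; exact hβ0 t ht⟩
  obtain ⟨_, ⟨t₂, ht₂, rfl⟩, h2⟩ := exists_lt_of_csInf_lt (s := β '' Set.Ioi 0)
    ⟨_, 1, Set.mem_Ioi.2 one_pos, rfl⟩ (show sInf (β '' Set.Ioi 0) < sInf (β '' Set.Ioi 0) + γ by
      linarith)
  refine ⟨as, β t₂, t₂, ht₂, hβ0 _ ht₂, fun p => le_csSup hba ⟨p, rfl⟩,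
    fun p hp => le_csSup (hbd _) ⟨p, hp, rfl⟩, fun t₁ ht₁ => ?_⟩
  obtain ⟨_, ⟨p, hp, rfl⟩, h3⟩ := exists_lt_of_lt_csSup (hne t₁ ht₁)
    (show β t₁ - γ < β t₁ by linarith)
  have := csInf_le hbb ⟨t₁, ht₁, rfl⟩
  exact ⟨p, hp, by linarith⟩

lemma packing [FiniteDimensional ℝ E] (L : ℝ) :
    ∃ N₀ : ℕ, ∀ N : ℕ, N₀ < N → ∀ m : ℝ, 0 < m → ∀ D : ℕ → E, (∀ i, ‖D i‖ ≤ L * m) →
      ∃ i < N, ∃ j < N, i ≠ j ∧ ‖D i - D j‖ ≤ m / 4 := by
  obtain ⟨t, -, ht, hc⟩ := (isCompact_closedBall (0 : E) L).finite_cover_balls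
    (e := 1 / 8) (by norm_num)
  refine ⟨ht.toFinset.card, fun N hN m hm D hD => ?_⟩
  have h : ∀ i, ∃ x ∈ t, dist (m⁻¹ • D i) x < 1 / 8 := by
    intro i
    have : m⁻¹ • D i ∈ Metric.closedBall (0 : E) L := by
      rw [mem_closedBall_zero_iff, norm_smul, norm_inv, Real.norm_eq_abs, abs_of_pos hm,
        inv_mul_le_iff₀ hm, mul_comm]
      exact hD i
    simpa using hc this
  choose f hf1 hf2 using h
  obtain ⟨i, hi, j, hj, hij, h⟩ := exists_ne_map_eq_of_card_lt_of_maps_to (s := range N)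
    (t := ht.toFinset) (by simpa using hN) (f := f) (fun i _ => by simpa using hf1 i)
  refine ⟨i, mem_range.1 hi, j, mem_range.1 hj, hij, ?_⟩
  have h1 := dist_triangle_right (m⁻¹ • D i) (m⁻¹ • D j) (f i)
  have h2 := hf2 i
  have h3 := hf2 j
  rw [← h] at h3
  rw [dist_eq_norm, ← smul_sub, norm_smul, norm_inv, Real.norm_eq_abs, abs_of_pos hm,
    inv_mul_le_iff₀ hm] at h1
  nlinarith

end Vale.Agent.P208
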